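import Mathlib
import Vale.Agent.Lib.P295.Radical

/-!
# Venereau-type coordinates: the radical criterion

In `ℂ[x,y,z,u]` (with `x = X 0, y = X 1, z = X 2, u = X 3`), for polynomials `a b ∈ ℂ[x]` such that
`b` divides a power of `a`, the polynomial `y + a b (b z + y (y u + z²))` is a `ℂ[x]`-coordinate.
-/

namespace Vale.Agent.Results.P295.A_radical

open MvPolynomial

/-- If `b ∣ a ^ M` then some `ℂ[x]`-automorphism of `ℂ[x,y,z,u]` sends
`y + a b (b z + y (y u + z²))` to `y`. -/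
theorem result (a b : Polynomial ℂ) (M : ℕ) (h : b ∣ a ^ M) :
    ∃ φ : MvPolynomial (Fin 4) ℂ ≃ₐ[ℂ] MvPolynomial (Fin 4) ℂ,
      φ (X 0) = X 0 ∧
      φ (X 1 + Polynomial.aeval (X 0 : MvPolynomial (Fin 4) ℂ) a *
          Polynomial.aeval (X 0 : MvPolynomial (Fin 4) ℂ) b *
          (Polynomial.aeval (X 0 : MvPolynomial (Fin 4) ℂ) b * X 2 +
            X 1 * (X 1 * X 3 + X 2 ^ 2))) = X 1 :=
  Vale.Agent.Lib.P295.Radical.general a b M h

end Vale.Agent.Results.P295.A_radical
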