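import Mathlib
import Vale.Agent.Lib.P295.Radical

/-!
# Venereau-type coordinates: every slope above one

In `ℂ[x,y,z,u]` (with `x = X 0, y = X 1, z = X 2, u = X 3`), for natural numbers `k < m`, the
polynomial `y + x^m (x^k z + y (y u + z²))` is a `ℂ[x]`-coordinate.
-/

namespace Vale.Agent.Results.P295.B_all_slopes

open MvPolynomial

/-- For `k < m` some `ℂ[x]`-automorphism of `ℂ[x,y,z,u]` sends
`y + x^m (x^k z + y (y u + z²))` to `y`. -/
theorem result (m k : ℕ) (hmk : k < m) :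
    ∃ φ : MvPolynomial (Fin 4) ℂ ≃ₐ[ℂ] MvPolynomial (Fin 4) ℂ,
      φ (X 0) = X 0 ∧
      φ (X 1 + (X 0 : MvPolynomial (Fin 4) ℂ) ^ m *
          ((X 0 : MvPolynomial (Fin 4) ℂ) ^ k * X 2 +
            X 1 * (X 1 * X 3 + X 2 ^ 2))) = X 1 :=
  Vale.Agent.Lib.P295.Radical.monomial m k hmk

end Vale.Agent.Results.P295.B_all_slopes
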