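import Vale.Agent.Lib.P295.VenereauCore

/-!
# A family of Venereau-type coordinates

In `ℂ[x,y,z,u]` (with `x = X 0, y = X 1, z = X 2, u = X 3`), for `m k : ℕ` with `3 k ≤ 2 m`, the
polynomial `y + x^m (x^k z + y (y u + z²))` is a `ℂ[x]`-coordinate.  For `k = 1` this contains the
Venereau polynomials `v_m` with `m ≥ 2`.  New cases are, for instance,
`y + x³ (x² z + y (y u + z²))`.
-/

namespace Vale.Agent.Results.P295.VenereauFamily

open MvPolynomial

/-- In `ℂ[x,y,z,u]`, for `3 k ≤ 2 m`, some `ℂ[x]`-automorphism sends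
`y + x^m (x^k z + y (y u + z²))` to `y`. -/
theorem result (m k : ℕ) (hmk : 3 * k ≤ 2 * m) :
    ∃ φ : MvPolynomial (Fin 4) ℂ ≃ₐ[ℂ] MvPolynomial (Fin 4) ℂ,
      φ (X 0) = X 0 ∧
      φ (X 1 + X 0 ^ m * (X 0 ^ k * X 2 + X 1 * (X 1 * X 3 + X 2 ^ 2))) = X 1 := by
  have he : 2 * (m - k) = k + (2 * m - 3 * k) := by omega
  have h3 : (X 0 : MvPolynomial (Fin 4) ℂ) ^ m = X 0 ^ (m - k) * X 0 ^ k := by
    rw [← pow_add]; congr 1; omega
  obtain ⟨φ, h0, h1⟩ := Vale.Agent.Lib.P295.VenereauCore.general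
    (Polynomial.X ^ (m - k)) (Polynomial.X ^ k) (Polynomial.X ^ (2 * m - 3 * k)) (by
      rw [← pow_mul, mul_comm (m - k) 2, he, pow_add])
  refine ⟨φ, h0, ?_⟩
  simp only [map_pow, Polynomial.aeval_X] at h1
  rw [h3]
  exact h1

end Vale.Agent.Results.P295.VenereauFamily
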