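import Vale.Agent.Lib.P295.VenereauCore

/-!
# A general family of Venereau-type coordinates

In `ℂ[x,y,z,u]` (with `x = X 0, y = X 1, z = X 2, u = X 3`), for polynomials `α β γ ∈ ℂ[x]` with
`α² = β γ`, the polynomial `y + α β (β z + y (y u + z²))` is a `ℂ[x]`-coordinate.
-/

namespace Vale.Agent.Results.P295.VenereauGeneral

open MvPolynomial

/-- For `α β γ ∈ ℂ[x]` with `α² = β γ`, some `ℂ[x]`-automorphism of `ℂ[x,y,z,u]` sends
`y + α β (β z + y (y u + z²))` to `y`. -/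
theorem result (α β γ : Polynomial ℂ) (h : α ^ 2 = β * γ) :
    ∃ φ : MvPolynomial (Fin 4) ℂ ≃ₐ[ℂ] MvPolynomial (Fin 4) ℂ,
      φ (X 0) = X 0 ∧
      φ (X 1 + Polynomial.aeval (X 0 : MvPolynomial (Fin 4) ℂ) α *
          Polynomial.aeval (X 0 : MvPolynomial (Fin 4) ℂ) β *
          (Polynomial.aeval (X 0 : MvPolynomial (Fin 4) ℂ) β * X 2 +
            X 1 * (X 1 * X 3 + X 2 ^ 2))) = X 1 :=
  Vale.Agent.Lib.P295.VenereauCore.general α β γ h

end Vale.Agent.Results.P295.VenereauGeneral
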